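import Vale.Agent.P290.H805.Baire
import Vale.Agent.P290.H580.Inv
import Vale.Agent.P290.H124.Cover
import Vale.Agent.P290.H124.Exist

open Set Vale.Agent.P290.All Vale.Agent.P290.H124 Vale.Agent.P290.H805
open scoped Manifold ContDiff Topology

/-- Let `F` be a family of compact Hausdorff complex surfaces over a space `T`, with second countable
total space `E`.
(1) There are countably many pairs of open subsets `A n`, `A' n` of `T` such that the fibre over `t`
is Oka if and only if `t ∈ A n` implies `t ∈ A' n` for all `n`.
(2) If `T` is metrizable, the set of all `t` with Oka fibre is a `G_δ`.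
(3) Let `D` be a set of parameters `t` whose fibres are Kummer surfaces, or have an unramified
covering by (for example: are isomorphic to) a K3 surface linked by a finite chain of
Tate-Shafarevich twists to a Kummer surface or to a K3 surface with holomorphic maps to Riemann
surfaces without common critical point and with finite joint fibres, or are otherwise known to be
Oka. Then in the closure of `D` the generic fibre is Oka: the `t` with Oka fibre form a residual
subset of the space `closure D`; in particular they form a residual subset of `T` if `D` is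
dense. -/
theorem Vale.Agent.Results.P290.GenericK3.result :
    ∀ (T E : Type) [TopologicalSpace T] [TopologicalSpace E] [SecondCountableTopology E]
      (F : Family T E), (∀ t, T2Space (Fib F t)) → (∀ t, CompactSpace (Fib F t)) →
      (∃ A A' : ℕ → Set T, (∀ n, IsOpen (A n)) ∧ (∀ n, IsOpen (A' n)) ∧
        ∀ t, IsOka (Fib F t) ↔ ∀ n, t ∈ A n → t ∈ A' n) ∧
      (TopologicalSpace.PseudoMetrizableSpace T → IsGδ {t | IsOka (Fib F t)}) ∧
      ∀ D : Set T, (∀ t ∈ D, IsOka (Fib F t) ∨ IsKummer (Fib F t) ∨
          ∃ (X Z : K3) (p : X.X → Fib F t), HolCover p ∧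
            Relation.EqvGen (fun X Y => Nonempty (Twist X Y)) X Z ∧ (Fibred Z ∨ IsKummer Z.X)) →
        {t : closure D | IsOka (Fib F t.1)} ∈ residual (closure D) ∧
        (Dense D → {t | IsOka (Fib F t)} ∈ residual T) := by
  intro T E _ _ _ F h2 hc
  refine ⟨exists_seq_open F h2 hc, fun _ => isGδ_oka F h2 hc, fun D hD => ?_⟩
  have h : ∀ t ∈ D, IsOka (Fib F t) := by
    intro t ht
    have := h2 t
    rcases hD t ht with h | h | ⟨X, Z, p, hp, hXZ, hZ⟩
    · exact h
    · exact isOka_of_isKummer h
    · have h1 : IsOka X.X := isOka_of_linked X Z hXZ hZ
      have := X.manifold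
      have := X.t2
      exact isOka_of_cover hp h1
  exact ⟨residual_closure F h2 hc h, fun hd => residual_oka F h2 hc (hd.mono h)⟩
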